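import Vale.Agent.P183.H287.U3

/-!
`SU_2(4)` is simple.
-/

set_option autoImplicit false
set_option linter.all false

namespace Vale.Agent.P183.H495.Q

open Matrix Vale.Agent.P183.H287

/-- first columns -/
abbrev P : Type := F16 × F16

def pm (p q : P) : P := (p.1 * q.1 + F16.cj p.2 * q.2, p.2 * q.1 + F16.cj p.1 * q.2)
def pinv (p : P) : P := (F16.cj p.1, p.2)
def ok (p : P) : Bool := p.1 * F16.cj p.1 + p.2 * F16.cj p.2 == 1
def pe : P := (1, 0)
def cg (x s : P) : P := pm (pm x s) (pinv x)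

def allF : List F16 := (List.range 16).map F16.mk
def LL : List P := (allF.flatMap fun x => allF.map fun y => (x, y)).filter ok

def isInv (t : P) : Bool := (t != pe) && (pm t t == pe)
def II : List P := LL.filter isInv

theorem mem_allF : ∀ x : F16, x ∈ allF := by decide +kernel

theorem mem_LL (p : P) (h : ok p = true) : p ∈ LL := by
  unfold LL
  rw [List.mem_filter]
  refine ⟨?_, h⟩
  rw [List.mem_flatMap]
  exact ⟨p.1, mem_allF _, List.mem_map.mpr ⟨p.2, mem_allF _, rfl⟩⟩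

theorem ok_of_mem {p : P} (h : p ∈ LL) : ok p = true := (List.mem_filter.mp h).2

theorem mem_II {p : P} (h : p ∈ II) : p ∈ LL ∧ isInv p = true := List.mem_filter.mp h

theorem D1 : (LL.all fun s => (s == pe) || isInv s || (LL.any fun x => isInv (pm s (cg x (pm s s))))
    || (LL.any fun x => isInv (pm s (cg x s)))) = true := by decide +kernel

theorem D2 : (II.all fun s => II.all fun t => LL.any fun x => cg x s == t) = true := by
  decide +kernel

theorem D3 : (LL.all fun g => II.any fun s => II.any fun t => pm s t == g) = true := by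
  decide +kernel

theorem LLlen : LL.length = 60 := by decide +kernel

theorem gen (S : P → Prop) (hm : ∀ p q, S p → S q → S (pm p q))
    (hc : ∀ x s, ok x = true → S s → S (cg x s)) (hok : ∀ s, S s → ok s = true)
    (s : P) (hs : S s) (hne : s ≠ pe) : ∀ g, ok g = true → S g := by
  -- an involution
  have h1 : ∃ t, S t ∧ isInv t = true := by
    have := List.all_eq_true.mp D1 s (mem_LL s (hok s hs))
    rw [Bool.or_eq_true, Bool.or_eq_true, Bool.or_eq_true] at this
    rcases this with ((h | h) | h) | h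
    · exact absurd (by simpa using h) hne
    · exact ⟨s, hs, h⟩
    · obtain ⟨x, hx, hx2⟩ := List.any_eq_true.mp h
      exact ⟨_, hm _ _ hs (hc _ _ (ok_of_mem hx) (hm _ _ hs hs)), hx2⟩
    · obtain ⟨x, hx, hx2⟩ := List.any_eq_true.mp h
      exact ⟨_, hm _ _ hs (hc _ _ (ok_of_mem hx) hs), hx2⟩
  obtain ⟨t, ht, hti⟩ := h1
  have htI : t ∈ II := List.mem_filter.mpr ⟨mem_LL t (hok t ht), hti⟩
  have h2 : ∀ u ∈ II, S u := by
    intro u hu
    have := List.all_eq_true.mp (List.all_eq_true.mp D2 t htI) u hu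
    obtain ⟨x, hx, hx2⟩ := List.any_eq_true.mp this
    have hx3 : cg x t = u := by simpa using hx2
    rw [← hx3]
    exact hc _ _ (ok_of_mem hx) ht
  intro g hg
  have := List.all_eq_true.mp D3 g (mem_LL g hg)
  obtain ⟨u, hu, hu2⟩ := List.any_eq_true.mp this
  obtain ⟨v, hv, hv2⟩ := List.any_eq_true.mp hu2
  have hv3 : pm u v = g := by simpa using hv2
  rw [← hv3]
  exact hm _ _ (h2 u hu) (h2 v hv)

/-- the matrix -/
def elm (p : P) : M3 := !![p.1, F16.cj p.2, 0; p.2, F16.cj p.1, 0; 0, 0, 1]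

theorem el_uni : ∀ p : P, ok p = true → elm p * (elm p)ᴴ = 1 := by decide +kernel

theorem el_det (p : P) (hp : ok p = true) : (elm p).det = 1 := by
  rw [Matrix.det_fin_three]
  revert p
  decide +kernel

/-- the element -/
def el (p : P) (hp : ok p = true) : QU := ⟨elm p, false, el_uni p hp, el_det p hp⟩

/-- first column -/
def col (x : QU) : P := (x.m 0 0, x.m 1 0)

theorem el_mem (p : P) (hp : ok p = true) : el p hp ∈ QU.B := by
  rw [QU.mem_B]
  exact ⟨rfl, ⟨rfl, rfl, rfl, rfl⟩, rfl⟩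

theorem col_el (p : P) (hp : ok p = true) : col (el p hp) = p := rfl

theorem B_form {x : QU} (hx : x ∈ QU.B) :
    x.m 0 1 = F16.cj (x.m 1 0) ∧ x.m 1 1 = F16.cj (x.m 0 0) ∧ ok (col x) = true := by
  obtain ⟨m, b, hu, hd⟩ := x
  obtain ⟨hb, ⟨h02, h12, h20, h21⟩, h22⟩ := QU.mem_B.mp hx
  change m 0 2 = 0 at h02
  change m 1 2 = 0 at h12
  change m 2 0 = 0 at h20
  change m 2 1 = 0 at h21
  change m 2 2 = 1 at h22
  have E : ∀ i j, (m * mᴴ) i j = (1 : M3) i j := fun i j => congrFun (congrFun hu i) j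
  have E00 := E 0 0
  have E01 := E 0 1
  have E10 := E 1 0
  have E11 := E 1 1
  rw [Matrix.mul_apply, Fin.sum_univ_three] at E00 E01 E10 E11
  rw [h02] at E00 E01
  rw [h12] at E10 E11
  change m 0 0 * F16.cj (m 0 0) + m 0 1 * F16.cj (m 0 1) + 0 * _ = 1 at E00
  change m 0 0 * F16.cj (m 1 0) + m 0 1 * F16.cj (m 1 1) + 0 * _ = 0 at E01
  change m 1 0 * F16.cj (m 0 0) + m 1 1 * F16.cj (m 0 1) + 0 * _ = 0 at E10
  change m 1 0 * F16.cj (m 1 0) + m 1 1 * F16.cj (m 1 1) + 0 * _ = 1 at E11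
  rw [Matrix.det_fin_three, h02, h12, h20, h21, h22] at hd
  have A : m 1 1 = F16.cj (m 0 0) := by
    linear_combination (F16.cj (m 0 0)) * hd - m 1 1 * E00 + m 0 1 * E10
  have Bn : F16.cj (m 1 0) + m 0 1 = 0 := by
    linear_combination (- F16.cj (m 1 0)) * hd + m 1 1 * E01 - m 0 1 * E11
  have B' : m 0 1 = F16.cj (m 1 0) := by
    have h : ∀ u v : F16, u + v = 0 → v = u := by decide +kernel
    exact h _ _ Bn
  refine ⟨B', A, ?_⟩
  change (m 0 0 * F16.cj (m 0 0) + m 1 0 * F16.cj (m 1 0) == 1) = true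
  rw [beq_iff_eq]
  rw [B', F16.cj_cj] at E00
  linear_combination E00

theorem col_mul {x y : QU} (hx : x ∈ QU.B) (hy : y ∈ QU.B) : col (x * y) = pm (col x) (col y) := by
  obtain ⟨h1, h2, h3⟩ := B_form hx
  have hyb := QU.mem_B.mp hy
  have hxb := QU.mem_B.mp hx
  have y20 : y.m 2 0 = 0 := hyb.2.1.2.2.1
  have e : ∀ i, (x * y).m i 0 = x.m i 0 * y.m 0 0 + x.m i 1 * y.m 1 0 := by
    intro i
    rw [QU.mul_m, hxb.1, QU.tw_false, Matrix.mul_apply, Fin.sum_univ_three, y20]
    ring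
  unfold col pm
  rw [e, e, h1, h2]

theorem col_inv {x : QU} (hx : x ∈ QU.B) : col x⁻¹ = pinv (col x) := by
  obtain ⟨h1, h2, h3⟩ := B_form hx
  have hxb := QU.mem_B.mp hx
  have e : ∀ i j, (x⁻¹).m i j = F16.cj (x.m j i) := by
    intro i j
    rw [QU.inv_m, hxb.1, QU.tw_false]
    rfl
  unfold col pinv
  rw [e, e, h1, F16.cj_cj]

theorem col_inj {x y : QU} (hx : x ∈ QU.B) (hy : y ∈ QU.B) (h : col x = col y) : x = y := by
  obtain ⟨a1, a2, a3⟩ := B_form hx
  obtain ⟨b1, b2, b3⟩ := B_form hy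
  have k1 : x.m 0 0 = y.m 0 0 := congrArg Prod.fst h
  have k2 : x.m 1 0 = y.m 1 0 := congrArg Prod.snd h
  obtain ⟨hb, ⟨h02, h12, h20, h21⟩, h22⟩ := QU.mem_B.mp hx
  obtain ⟨gb, ⟨g02, g12, g20, g21⟩, g22⟩ := QU.mem_B.mp hy
  apply QU.ext'
  · refine Matrix.ext fun i j => ?_
    fin_cases i <;> fin_cases j
    · exact k1
    · change x.m 0 1 = y.m 0 1
      rw [a1, b1, k2]
    · exact h02.trans g02.symm
    · exact k2
    · change x.m 1 1 = y.m 1 1
      rw [a2, b2, k1]
    · exact h12.trans g12.symm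
    · exact h20.trans g20.symm
    · exact h21.trans g21.symm
    · exact h22.trans g22.symm
  · rw [hb, gb]

theorem h4b (N : Subgroup QU) (hN : N ≤ QU.B) (hn : ∀ q ∈ QU.B, ∀ x ∈ N, q * x * q⁻¹ ∈ N) :
    N = ⊥ ∨ N = QU.B := by
  by_cases h0 : ∀ x ∈ N, x = 1
  · left
    exact (Subgroup.eq_bot_iff_forall N).mpr h0
  · right
    push Not at h0
    obtain ⟨s, hs, hs1⟩ := h0
    have hcol1 : col 1 = pe := rfl
    have key := gen (fun p => ∃ x ∈ N, col x = p)
      (by
        rintro p q ⟨x, hx, rfl⟩ ⟨y, hy, rfl⟩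
        exact ⟨x * y, N.mul_mem hx hy, col_mul (hN hx) (hN hy)⟩)
      (by
        rintro p q hp ⟨y, hy, rfl⟩
        refine ⟨el p hp * y * (el p hp)⁻¹, hn _ (el_mem p hp) y hy, ?_⟩
        rw [col_mul (QU.B.mul_mem (el_mem p hp) (hN hy)) (QU.B.inv_mem (el_mem p hp)),
          col_mul (el_mem p hp) (hN hy), col_inv (el_mem p hp), col_el]
        rfl)
      (by
        rintro p ⟨x, hx, rfl⟩
        exact (B_form (hN hx)).2.2)
      (col s) ⟨s, hs, rfl⟩
      (by
        intro h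
        exact hs1 (col_inj (hN hs) QU.B.one_mem (h.trans hcol1.symm)))
    refine le_antisymm hN fun y hy => ?_
    obtain ⟨x, hx, hxy⟩ := key (col y) (B_form hy).2.2
    rw [← col_inj (hN hx) hy hxy]
    exact hx

end Vale.Agent.P183.H495.Q
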