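import Vale.Agent.P183.H552.U3

/-!
The centraliser of the intersection of two conjugate line stabilisers is trivial.
-/

set_option autoImplicit false

namespace Vale.Agent.P183.H495

open Matrix Vale.Agent.P183.H552

/-- an element of order five -/
def l5 : F16 := ⟨0, 0, 0, 1⟩

/-- the transposition of the first two coordinates -/
def tt : U where
  m := !![0, 1, 0; 1, 0, 0; 0, 0, 1]
  b := false
  h := by decide +kernel
  dt := by rw [Matrix.det_fin_three]; decide +kernel

/-- a diagonal element -/
def d1 : U where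
  m := !![1, 0, 0; 0, l5, 0; 0, 0, F16.cj l5]
  b := false
  h := by decide +kernel
  dt := by rw [Matrix.det_fin_three]; decide +kernel

/-- a diagonal element -/
def d2 : U where
  m := !![l5, 0, 0; 0, 1, 0; 0, 0, F16.cj l5]
  b := false
  h := by decide +kernel
  dt := by rw [Matrix.det_fin_three]; decide +kernel

/-- the field automorphism -/
def ph : U where
  m := 1
  b := true
  h := by decide +kernel
  dt := Matrix.det_one

theorem d1_mem : d1 ∈ QQ := by rw [mem_QQ]; decide +kernel
theorem d2_mem : d2 ∈ QQ := by rw [mem_QQ]; decide +kernel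
theorem ph_mem : ph ∈ QQ := by rw [mem_QQ]; decide +kernel
theorem d1_mem' : tt⁻¹ * d1 * tt ∈ QQ := by rw [mem_QQ]; decide +kernel
theorem d2_mem' : tt⁻¹ * d2 * tt ∈ QQ := by rw [mem_QQ]; decide +kernel
theorem ph_mem' : tt⁻¹ * ph * tt ∈ QQ := by rw [mem_QQ]; decide +kernel

theorem key1 (x : F16) (h1 : x = F16.cj x) (h2 : x * F16.cj x = 1) : x = 1 := by
  revert x; decide +kernel

theorem hC' (c : U) (h1 : c * d1 = d1 * c) (h2 : c * d2 = d2 * c) (h3 : c * ph = ph * c) :
    c = 1 := by
  obtain ⟨m, b, hm, hd⟩ := c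
  have e1 : ∀ i j, m i j * cb b (d1.m j j) = d1.m i i * m i j := by
    intro i j
    have := congrFun (congrFun (congrArg U.m h1) i) j
    rw [U.mul_m, U.mul_m] at this
    simp only [Matrix.mul_apply, Fin.sum_univ_three, mc_apply] at this
    fin_cases i <;> fin_cases j <;> simpa [d1] using this
  have e2 : ∀ i j, m i j * cb b (d2.m j j) = d2.m i i * m i j := by
    intro i j
    have := congrFun (congrFun (congrArg U.m h2) i) j
    rw [U.mul_m, U.mul_m] at this
    simp only [Matrix.mul_apply, Fin.sum_univ_three, mc_apply] at this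
    fin_cases i <;> fin_cases j <;> simpa [d2] using this
  have e3 : ∀ i j, m i j = F16.cj (m i j) := by
    intro i j
    have := congrFun (congrFun (congrArg U.m h3) i) j
    rw [U.mul_m, U.mul_m] at this
    simpa [ph, mc_one] using this
  have z : ∀ x u v : F16, x * u = v * x → u ≠ v → x = 0 := by
    intro x u v h hne
    have : x * (u - v) = 0 := by rw [mul_sub, h]; ring
    exact (mul_eq_zero.mp this).resolve_right (sub_ne_zero.mpr hne)
  cases b with
  | false =>
    have z01 : m 0 1 = 0 := z _ _ _ (e1 0 1) (by decide +kernel)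
    have z02 : m 0 2 = 0 := z _ _ _ (e1 0 2) (by decide +kernel)
    have z10 : m 1 0 = 0 := z _ _ _ (e1 1 0) (by decide +kernel)
    have z12 : m 1 2 = 0 := z _ _ _ (e1 1 2) (by decide +kernel)
    have z20 : m 2 0 = 0 := z _ _ _ (e1 2 0) (by decide +kernel)
    have z21 : m 2 1 = 0 := z _ _ _ (e1 2 1) (by decide +kernel)
    have u : ∀ i, m i i * F16.cj (m i i) = 1 := by
      intro i
      have := congrFun (congrFun hm i) i
      simp only [Matrix.mul_apply, Fin.sum_univ_three, st_apply] at this
      fin_cases i <;> simpa [z01, z02, z10, z12, z20, z21] using this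
    have w : ∀ i, m i i = 1 := fun i => key1 _ (e3 i i) (u i)
    apply U.ext
    · refine Matrix.ext fun i j => ?_
      have w0 := w 0
      have w1 := w 1
      have w2 := w 2
      fin_cases i <;> fin_cases j <;> simp [z01, z02, z10, z12, z20, z21, w0, w1, w2]
    · rfl
  | true =>
    exfalso
    have z00 : m 0 0 = 0 := z _ _ _ (e2 0 0) (by decide +kernel)
    have z01 : m 0 1 = 0 := z _ _ _ (e1 0 1) (by decide +kernel)
    have z02 : m 0 2 = 0 := z _ _ _ (e1 0 2) (by decide +kernel)
    rw [Matrix.det_fin_three, z00, z01, z02] at hd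
    simp at hd

theorem hC (c : U) (h : ∀ h ∈ QQ, tt⁻¹ * h * tt ∈ QQ → c * h = h * c) : c = 1 :=
  hC' c (h _ d1_mem d1_mem') (h _ d2_mem d2_mem') (h _ ph_mem ph_mem')

end Vale.Agent.P183.H495
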