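import Vale.Agent.P183.H287.Top

/-!
A subgroup above the line stabiliser contains an element whose first entry vanishes.
-/

set_option autoImplicit false
set_option linter.all false

namespace Vale.Agent.P183.H495

open Matrix Vale.Agent.P183.H552 Vale.Agent.P183.H287

theorem N_zero : ∀ x : F16, N x = 0 → x = 0 := by decide +kernel

theorem N_cb (b : Bool) (x : F16) : N (cb b x) = N x := by
  cases b
  · rfl
  · exact N_cj x

theorem cb2 (b : Bool) (x : F16) : cb b (cb b x) = x := by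
  cases b
  · rfl
  · exact F16.cj_cj x

theorem cj_N (x : F16) : F16.cj (N x) = N x := by
  unfold N
  rw [map_mul, F16.cj_cj, mul_comm]

theorem claim1 : ∀ c r s : F16, r ≠ 0 → N c = (1 + N r + N s) * (1 + N r + N s) →
    1 + N r + N s ≠ 0 → 1 + N r + N s ≠ 1 →
    ∃ d : F16, N (c + s * d) + N d * N r = (N r + N s) * N r := by
  decide +kernel

theorem claim2 : ∀ c u v : F16, N c = 1 → N u = N v → N u ≠ 0 →
    ∃ m : F16, N m = 1 ∧ N (c + m * u + F16.cj m * v) ≠ 1 := by
  decide +kernel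

/-- the special unitary group acts transitively on the vectors of a given nonzero norm -/
theorem trans_su (w0 w1 a d : F16) (h : N a + N d = N w0 + N w1) (hn : N w0 + N w1 ≠ 0) :
    ∃ X Y : F16, N X + N Y = 1 ∧ X * w0 + Y * w1 = a ∧ F16.cj Y * w0 + F16.cj X * w1 = d := by
  have hc : F16.cj (N w0 + N w1)⁻¹ = (N w0 + N w1)⁻¹ := by
    rw [map_inv₀, map_add, cj_N, cj_N]
  set n := N w0 + N w1 with hndef
  have hi : n * n⁻¹ = 1 := mul_inv_cancel₀ hn
  have e0 : w0 * F16.cj w0 + w1 * F16.cj w1 = n := hndef.symm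
  have e1 : a * F16.cj a + d * F16.cj d = n := h
  refine ⟨(a * F16.cj w0 + F16.cj d * w1) * n⁻¹, (F16.cj d * w0 + a * F16.cj w1) * n⁻¹, ?_, ?_, ?_⟩
  · unfold N
    simp only [map_mul, map_add, F16.cj_cj, hc]
    have t1 := F16.add_self (a * d * F16.cj w0 * F16.cj w1 * n⁻¹ * n⁻¹)
    have t2 := F16.add_self (F16.cj a * F16.cj d * w0 * w1 * n⁻¹ * n⁻¹)
    linear_combination (a * F16.cj a + d * F16.cj d) * n⁻¹ * n⁻¹ * e0 + n * n⁻¹ * n⁻¹ * e1
      + (n * n⁻¹ + 1) * hi + t1 + t2
  · have t1 := F16.add_self (F16.cj d * w0 * w1 * n⁻¹)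
    linear_combination a * n⁻¹ * e0 + a * hi + t1
  · simp only [map_mul, map_add, F16.cj_cj, hc]
    have t1 := F16.add_self (F16.cj a * w0 * w1 * n⁻¹)
    linear_combination d * n⁻¹ * e0 + d * hi + t1

theorem col_norm (g : U) : N (g.m 0 0) + N (g.m 1 0) + N (g.m 2 0) = 1 := by
  have e := congrFun (congrFun g.h' 0) 0
  simp only [Matrix.mul_apply, Fin.sum_univ_three, st_apply, Matrix.one_apply_eq] at e
  unfold N
  rw [← e]; ring

theorem row_norm (g : U) : N (g.m 0 0) + N (g.m 0 1) + N (g.m 0 2) = 1 := by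
  have e := congrFun (congrFun g.h 0) 0
  simp only [Matrix.mul_apply, Fin.sum_univ_three, st_apply, Matrix.one_apply_eq] at e
  unfold N
  rw [← e]

theorem entry (g : U) (X Y : F16) (h : N X + N Y = 1) :
    (g * su X Y h * g).m 0 0 = g.m 0 0 * cb g.b (g.m 0 0)
      + g.m 0 1 * cb g.b (X * g.m 1 0 + Y * g.m 2 0)
      + g.m 0 2 * cb g.b (F16.cj Y * g.m 1 0 + F16.cj X * g.m 2 0) := by
  simp [su, Matrix.mul_apply, Fin.sum_univ_three, map_add, map_mul]
  ring

variable {K : Subgroup U}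

theorem case1 (hK : QQ ≤ K) (g : U) (hg : g ∈ K) (h0 : N (g.m 0 0) ≠ 0)
    (h1 : N (g.m 0 0) ≠ 1) : ∃ g' ∈ K, g'.m 0 0 = 0 := by
  have hcol := col_norm g
  have hrow := row_norm g
  have two : ∀ x : F16, x + x = 0 := F16.add_self
  set x := g.m 0 0 with hx
  set w0 := g.m 1 0
  set w1 := g.m 2 0
  set r := g.m 0 1
  set s := g.m 0 2
  have hxr : N x = 1 + N r + N s := by
    linear_combination hrow - two (N r) - two (N s)
  have hw : N w0 + N w1 = N r + N s := by
    linear_combination hcol - hrow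
  have hN : N (x * cb g.b x) = N x * N x := by rw [N_mul, N_cb]
  have hrs : N r + N s ≠ 0 := by
    intro h
    apply h1
    rw [hxr, add_assoc, h, add_zero]
  -- the linear equation
  have key : ∃ a d : F16, N a + N d = N r + N s ∧ x * cb g.b x + r * a + s * d = 0 := by
    by_cases hr : r = 0
    · have hs : s ≠ 0 := by
        intro hs
        apply hrs
        rw [hr, hs]
        decide
      obtain ⟨e, he⟩ := claim1 (x * cb g.b x) s r hs
        (by rw [hN, hxr]; ring)
        (by intro h; exact h0 (by linear_combination hxr + h))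
        (by intro h; exact h1 (by linear_combination hxr + h))
      refine ⟨e, (x * cb g.b x + r * e) * s⁻¹, ?_, ?_⟩
      · rw [N_mul]
        have := N_inv s hs
        linear_combination (N s⁻¹) * he + (N r + N s - N e) * this
      · have hss : s * s⁻¹ = 1 := mul_inv_cancel₀ hs
        linear_combination (x * cb g.b x + r * e) * hss + two (x * cb g.b x + r * e)
    · obtain ⟨e, he⟩ := claim1 (x * cb g.b x) r s hr
        (by rw [hN, hxr])
        (by rw [← hxr]; exact h0)
        (by rw [← hxr]; exact h1)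
      refine ⟨(x * cb g.b x + s * e) * r⁻¹, e, ?_, ?_⟩
      · rw [N_mul]
        have := N_inv r hr
        linear_combination (N r⁻¹) * he + (N r + N s - N e) * this
      · have hrr : r * r⁻¹ = 1 := mul_inv_cancel₀ hr
        linear_combination (x * cb g.b x + s * e) * hrr + two (x * cb g.b x + s * e)
  obtain ⟨a, d, had, hlin⟩ := key
  obtain ⟨X, Y, hXY, hX, hY⟩ := trans_su w0 w1 (cb g.b a) (cb g.b d)
    (by rw [N_cb, N_cb, had, hw]) (by rw [hw]; exact hrs)
  refine ⟨g * su X Y hXY * g, K.mul_mem (K.mul_mem hg (hK (su_mem hXY))) hg, ?_⟩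
  rw [entry]
  change x * cb g.b x + r * cb g.b (X * w0 + Y * w1)
      + s * cb g.b (F16.cj Y * w0 + F16.cj X * w1) = 0
  rw [hX, hY, cb2, cb2]
  exact hlin

theorem QQ_of_row {g : U} (h1 : g.m 0 1 = 0) (h2 : g.m 0 2 = 0) : g ∈ QQ := by
  have : g⁻¹ ∈ QQ := by
    apply QQ_of_col
    · simp [h1]
    · simp [h2]
  simpa using QQ.inv_mem this

/-- A subgroup above the line stabiliser contains an element whose first entry vanishes. -/
theorem zero_of_not_mem (K : Subgroup U) (hK : QQ ≤ K) (g : U) (hg : g ∈ K) (hq : g ∉ QQ) :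
    ∃ g' ∈ K, g'.m 0 0 = 0 := by
  by_cases h0 : N (g.m 0 0) = 0
  · exact ⟨g, hg, N_zero _ h0⟩
  by_cases h1 : N (g.m 0 0) = 1
  · have hcol := col_norm g
    have hrow := row_norm g
    have two : ∀ x : F16, x + x = 0 := F16.add_self
    have hw : N (g.m 1 0) = N (g.m 2 0) := by
      linear_combination hcol - h1 - two (N (g.m 2 0))
    have hr : N (g.m 0 1) = N (g.m 0 2) := by
      linear_combination hrow - h1 - two (N (g.m 0 2))
    have hw0 : N (g.m 1 0) ≠ 0 := by
      intro h
      exact hq (QQ_of_col (N_zero _ h) (N_zero _ (hw.symm.trans h)))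
    have hr0 : N (g.m 0 1) ≠ 0 := by
      intro h
      exact hq (QQ_of_row (N_zero _ h) (N_zero _ (hr.symm.trans h)))
    obtain ⟨m, hm, hm2⟩ := claim2 (g.m 0 0 * cb g.b (g.m 0 0))
      (g.m 0 1 * cb g.b (g.m 1 0)) (g.m 0 2 * cb g.b (g.m 2 0))
      (by rw [N_mul, N_cb, h1, one_mul])
      (by rw [N_mul, N_mul, N_cb, N_cb, hw, hr])
      (by rw [N_mul, N_cb]; exact mul_ne_zero hr0 hw0)
    have hsu : N (cb g.b m) + N 0 = 1 := by
      rw [N_cb, hm]
      decide
    have hval : (g * su (cb g.b m) 0 hsu * g).m 0 0 =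
        g.m 0 0 * cb g.b (g.m 0 0) + m * (g.m 0 1 * cb g.b (g.m 1 0))
          + F16.cj m * (g.m 0 2 * cb g.b (g.m 2 0)) := by
      rw [entry]
      simp only [zero_mul, add_zero, map_zero, zero_add, map_mul, cb2, cb_cj]
      ring
    have hmem : g * su (cb g.b m) 0 hsu * g ∈ K :=
      K.mul_mem (K.mul_mem hg (hK (su_mem hsu))) hg
    by_cases h2 : N ((g * su (cb g.b m) 0 hsu * g).m 0 0) = 0
    · exact ⟨_, hmem, N_zero _ h2⟩
    · exact case1 hK _ hmem h2 (by rw [hval]; exact hm2)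
  · exact case1 hK g hg h0 h1

end Vale.Agent.P183.H495
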